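import Mathlib

/-!
# P208 (Lang-Plaut problem): the qualitative problem, the strong quantitative form, the
uniform finite form, and the form for countable compact sets with one accumulation point
are all equivalent.
-/

open Metric Set Filter Topology

namespace Vale.Agent.Results.P208.EquivForms

/-- Real separable Hilbert space: square-summable real sequences. -/
abbrev L2 : Type := lp (fun _ : ℕ => ℝ) 2

/-- `X` (with the induced distance) is doubling with constant at most `lam`: every ball of `X`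
is covered by at most `lam` balls of half its radius with centers in `X`. -/
def DoublingWith (X : Set L2) (lam : ℕ) : Prop :=
  ∀ x ∈ X, ∀ r : ℝ, 0 < r → ∃ S : Finset L2, (S : Set L2) ⊆ X ∧ S.card ≤ lam ∧
    X ∩ ball x r ⊆ ⋃ y ∈ S, ball y (r / 2)

/-- `X` admits a bi-Lipschitz embedding into Euclidean `k`-space with distortion at most `D`. -/
def EmbedsWith (X : Set L2) (k : ℕ) (D : ℝ) : Prop :=
  ∃ (f : X → EuclideanSpace ℝ (Fin k)) (a : ℝ), 0 < a ∧ ∀ x y : X,
    a * dist x y ≤ dist (f x) (f y) ∧ dist (f x) (f y) ≤ D * a * dist x y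

/-- Auxiliary form of `EmbedsWith` with a map defined on all of `L2`. -/
def Emb (X : Set L2) (k : ℕ) (D : ℝ) : Prop :=
  ∃ (f : L2 → EuclideanSpace ℝ (Fin k)) (a : ℝ), 0 < a ∧ ∀ x ∈ X, ∀ y ∈ X,
      a * dist x y ≤ dist (f x) (f y) ∧ dist (f x) (f y) ≤ D * a * dist x y

theorem embedsWith_iff (X : Set L2) (k : ℕ) (D : ℝ) : EmbedsWith X k D ↔ Emb X k D := by
  classical
  constructor
  · rintro ⟨f, a, ha, hf⟩
    refine ⟨fun x => if h : x ∈ X then f ⟨x, h⟩ else 0, a, ha, ?_⟩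
    intro x hx y hy
    simp only [hx, hy, dif_pos]
    exact hf ⟨x, hx⟩ ⟨y, hy⟩
  · rintro ⟨f, a, ha, hf⟩
    exact ⟨fun x => f x, a, ha, fun x y => hf x x.2 y y.2⟩

theorem DoublingWith.subset {X Y : Set L2} {lam : ℕ} (hX : DoublingWith X lam) (hYX : Y ⊆ X) :
    DoublingWith Y (lam * lam) := by
  classical
  intro x hx r hr
  obtain ⟨S, hSX, hScard, hScov⟩ := hX x (hYX hx) r hr
  have h2 : ∀ y : L2, ∃ T : Finset L2, T.card ≤ lam ∧ (y ∈ X → X ∩ ball y (r / 2) ⊆ ⋃ z ∈ T, ball z (r / 2 / 2)) := by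
    intro y
    by_cases hy : y ∈ X
    · obtain ⟨T, _, hT, hcov⟩ := hX y hy (r / 2) (by positivity)
      exact ⟨T, hT, fun _ => hcov⟩
    · exact ⟨∅, by simp, fun h => absurd h hy⟩
  choose T hTcard hTcov using h2
  have h3 : ∀ z : L2, ∃ w : L2, (Y ∩ ball z (r / 2 / 2)).Nonempty → w ∈ Y ∩ ball z (r / 2 / 2) := by
    intro z
    by_cases hz : (Y ∩ ball z (r / 2 / 2)).Nonempty
    · exact ⟨hz.some, fun _ => hz.some_mem⟩
    · exact ⟨0, fun h => absurd h hz⟩
  choose w hw using h3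
  refine ⟨((S.biUnion T).filter (fun z => (Y ∩ ball z (r / 2 / 2)).Nonempty)).image w, ?_, ?_, ?_⟩
  · intro u hu
    simp only [Finset.coe_image, Finset.coe_filter, Set.mem_image, Set.mem_ofPred_eq] at hu
    obtain ⟨z, ⟨_, hz⟩, rfl⟩ := hu
    exact (hw z hz).1
  · calc _ ≤ ((S.biUnion T).filter (fun z => (Y ∩ ball z (r / 2 / 2)).Nonempty)).card := Finset.card_image_le
      _ ≤ (S.biUnion T).card := Finset.card_filter_le _ _
      _ ≤ ∑ y ∈ S, (T y).card := Finset.card_biUnion_le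
      _ ≤ ∑ _y ∈ S, lam := Finset.sum_le_sum (fun y _ => hTcard y)
      _ = S.card * lam := by simp
      _ ≤ lam * lam := Nat.mul_le_mul_right _ hScard
  · rintro u ⟨huY, hur⟩
    have h1 := hScov ⟨hYX huY, hur⟩
    simp only [Set.mem_iUnion, exists_prop] at h1
    obtain ⟨y, hyS, huy⟩ := h1
    have h2 := hTcov y (hSX hyS) ⟨hYX huY, huy⟩
    simp only [Set.mem_iUnion, exists_prop] at h2
    obtain ⟨z, hzT, huz⟩ := h2
    have hne : (Y ∩ ball z (r / 2 / 2)).Nonempty := ⟨u, huY, huz⟩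
    simp only [Set.mem_iUnion, exists_prop]
    refine ⟨w z, ?_, ?_⟩
    · simp only [Finset.mem_image, Finset.mem_filter, Finset.mem_biUnion]
      exact ⟨z, ⟨⟨y, hyS, hzT⟩, hne⟩, rfl⟩
    · have h4 := (hw z hne).2
      rw [mem_ball] at h4 huz ⊢
      calc dist u (w z) ≤ dist u z + dist z (w z) := dist_triangle _ _ _
        _ = dist u z + dist (w z) z := by rw [dist_comm z]
        _ < r / 2 / 2 + r / 2 / 2 := add_lt_add huz h4
        _ = r / 2 := by ring

theorem emb_of_finite (X : Set L2) (k : ℕ) (D : ℝ)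
    (h : ∀ F : Finset L2, (F : Set L2) ⊆ X → Emb (F : Set L2) k D) : Emb X k D := by
  classical
  rcases X.eq_empty_or_nonempty with rfl | ⟨x0, hx0⟩
  · exact ⟨fun _ => 0, 1, one_pos, by simp⟩
  have h' : ∀ F : Finset L2, Emb ((F.filter (· ∈ X) : Finset L2) : Set L2) k D := by
    intro F
    apply h
    intro x hx
    simpa using (Finset.mem_filter.mp hx).2
  choose f a ha hf using h'
  -- normalised maps
  let g : Finset L2 → L2 → EuclideanSpace ℝ (Fin k) := fun F x => (a F)⁻¹ • (f F x - f F x0)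
  have hg : ∀ F : Finset L2, ∀ x ∈ X, ∀ y ∈ X, x ∈ F → y ∈ F →
      dist x y ≤ dist (g F x) (g F y) ∧ dist (g F x) (g F y) ≤ D * dist x y := by
    intro F x hx y hy hxF hyF
    have h1 := hf F x (by simp [hxF, hx]) y (by simp [hyF, hy])
    have hd : dist (g F x) (g F y) = (a F)⁻¹ * dist (f F x) (f F y) := by
      simp only [g]
      rw [dist_smul₀, dist_sub_right, Real.norm_eq_abs, abs_of_pos (inv_pos.mpr (ha F))]
    rw [hd]
    have hpos := ha F
    constructor
    · rw [← div_eq_inv_mul, le_div_iff₀ hpos]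
      linarith [h1.1]
    · rw [← div_eq_inv_mul, div_le_iff₀ hpos]
      linarith [h1.2]
  let U : Ultrafilter (Finset L2) := Ultrafilter.of atTop
  have hU : (U : Filter (Finset L2)) ≤ atTop := Ultrafilter.of_le _
  have hlim : ∀ x : L2, ∃ l : EuclideanSpace ℝ (Fin k), x ∈ X → Tendsto (fun F => g F x) U (𝓝 l) := by
    intro x
    by_cases hx : x ∈ X
    · have hc : IsCompact (closedBall (0 : EuclideanSpace ℝ (Fin k)) (D * dist x x0)) :=
        isCompact_closedBall _ _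
      have hev : ∀ᶠ F in (U : Filter (Finset L2)), g F x ∈ closedBall (0 : EuclideanSpace ℝ (Fin k)) (D * dist x x0) := by
        apply hU
        filter_upwards [eventually_ge_atTop ({x, x0} : Finset L2)] with F hF
        have hxF : x ∈ F := hF (by simp)
        have hx0F : x0 ∈ F := hF (by simp)
        have := (hg F x hx x0 hx0 hxF hx0F).2
        have h0 : g F x0 = 0 := by simp [g]
        rw [h0] at this
        exact mem_closedBall.mpr this
      obtain ⟨l, _, hl⟩ := hc.ultrafilter_le_nhds (U.map (fun F => g F x)) (by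
        rw [le_principal_iff]
        exact hev)
      exact ⟨l, fun _ => hl⟩
    · exact ⟨0, fun h => absurd h hx⟩
  choose G hG using hlim
  refine ⟨G, 1, one_pos, ?_⟩
  intro x hx y hy
  have ht : Tendsto (fun F => dist (g F x) (g F y)) U (𝓝 (dist (G x) (G y))) :=
    (hG x hx).dist (hG y hy)
  have hev : ∀ᶠ F in (U : Filter (Finset L2)), dist x y ≤ dist (g F x) (g F y) ∧ dist (g F x) (g F y) ≤ D * dist x y := by
    apply hU
    filter_upwards [eventually_ge_atTop ({x, y} : Finset L2)] with F hF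
    exact hg F x hx y hy (hF (by simp)) (hF (by simp))
  constructor
  · rw [one_mul]
    exact ge_of_tendsto ht (hev.mono fun F h => h.1)
  · rw [mul_one]
    exact le_of_tendsto ht (hev.mono fun F h => h.2)

theorem q_le {m n : ℕ} (h : n < m) : (1 / 4 : ℝ) ^ m ≤ (1 / 4 : ℝ) ^ n / 4 := by
  have : (1 / 4 : ℝ) ^ m ≤ (1 / 4 : ℝ) ^ (n + 1) :=
    pow_le_pow_of_le_one (by norm_num) (by norm_num) h
  rw [pow_succ] at this
  linarith

theorem sep_pieces (P : ℕ → Set L2)
    (hlo : ∀ n, ∀ u ∈ P n, 15 / 16 * (1 / 4 : ℝ) ^ n ≤ ‖u‖)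
    (hhi : ∀ n, ∀ u ∈ P n, ‖u‖ ≤ 17 / 16 * (1 / 4 : ℝ) ^ n)
    {m n : ℕ} (hmn : m ≠ n) {z u : L2} (hz : z ∈ P n) (hu : u ∈ P m) :
    (1 / 4 : ℝ) ^ n / 2 ≤ dist u z := by
  have hq : (0 : ℝ) < (1 / 4 : ℝ) ^ n := by positivity
  have hq' : (0 : ℝ) < (1 / 4 : ℝ) ^ m := by positivity
  have h1 : |‖u‖ - ‖z‖| ≤ dist u z := by
    rw [dist_eq_norm]; exact abs_norm_sub_norm_le u z
  rcases lt_or_gt_of_ne hmn with h | h
  · have := q_le h
    have a1 := hlo m u hu
    have a2 := hhi n z hz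
    have := le_abs_self (‖u‖ - ‖z‖)
    linarith
  · have := q_le h
    have a1 := hhi m u hu
    have a2 := hlo n z hz
    have := neg_abs_le (‖u‖ - ‖z‖)
    linarith

theorem doubling_glue (P : ℕ → Set L2) (w : ℕ → L2) (Lam : ℕ) (hw : ∀ n, w n ∈ P n)
    (hlo : ∀ n, ∀ u ∈ P n, 15 / 16 * (1 / 4 : ℝ) ^ n ≤ ‖u‖)
    (hhi : ∀ n, ∀ u ∈ P n, ‖u‖ ≤ 17 / 16 * (1 / 4 : ℝ) ^ n)
    (hdiam : ∀ n, ∀ u ∈ P n, ∀ v ∈ P n, dist u v ≤ (1 / 4 : ℝ) ^ n / 8)
    (hd : ∀ n, DoublingWith (P n) Lam) :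
    DoublingWith (insert 0 (⋃ n, P n)) (max Lam 3) := by
  classical
  intro z hz r hr
  -- the large-radius case
  have big : ‖z‖ < 17 / 8 * r → ∃ S : Finset L2, (S : Set L2) ⊆ insert 0 (⋃ n, P n) ∧
      S.card ≤ max Lam 3 ∧ insert 0 (⋃ n, P n) ∩ ball z r ⊆ ⋃ y ∈ S, ball y (r / 2) := by
    intro hzr
    have hex : ∃ m : ℕ, (1 / 4 : ℝ) ^ m < 10 / 3 * r :=
      exists_pow_lt_of_lt_one (by positivity) (by norm_num)
    let m1 := Nat.find hex
    have hm1 : (1 / 4 : ℝ) ^ m1 < 10 / 3 * r := Nat.find_spec hex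
    refine ⟨{0, w m1, w (m1 + 1)}, ?_, ?_, ?_⟩
    · intro y hy
      simp only [Finset.coe_insert, Finset.coe_singleton, Set.mem_insert_iff,
        Set.mem_singleton_iff] at hy
      rcases hy with rfl | rfl | rfl
      · exact Set.mem_insert _ _
      · exact Set.mem_insert_of_mem _ (Set.mem_iUnion.mpr ⟨_, hw _⟩)
      · exact Set.mem_insert_of_mem _ (Set.mem_iUnion.mpr ⟨_, hw _⟩)
    · exact le_trans Finset.card_le_three (le_max_right _ _)
    · rintro u ⟨huZ, hur⟩
      have hunorm : ‖u‖ < 25 / 8 * r := by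
        have h1 : ‖u‖ ≤ ‖z‖ + dist u z := by
          rw [dist_eq_norm]
          calc ‖u‖ = ‖z + (u - z)‖ := by congr 1; abel
            _ ≤ ‖z‖ + ‖u - z‖ := norm_add_le _ _
        rw [mem_ball] at hur
        linarith
      simp only [Set.mem_iUnion, exists_prop, Finset.mem_insert, Finset.mem_singleton]
      by_cases hsmall : ‖u‖ < r / 2
      · exact ⟨0, Or.inl rfl, by rw [mem_ball, dist_zero_right]; exact hsmall⟩
      · rcases huZ with rfl | huZ
        · exact absurd (by simpa using (by positivity : 0 < r / 2)) hsmall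
        · obtain ⟨m, hum⟩ := Set.mem_iUnion.mp huZ
          have a1 := hlo m u hum
          have a2 := hhi m u hum
          have hm_ge : m1 ≤ m := Nat.find_min' hex (by linarith)
          have hm_le : m < m1 + 2 := by
            by_contra hcon
            rw [not_lt] at hcon
            have h1 : (1 / 4 : ℝ) ^ m ≤ (1 / 4 : ℝ) ^ (m1 + 2) :=
              pow_le_pow_of_le_one (by norm_num) (by norm_num) hcon
            rw [pow_add] at h1
            norm_num at h1
            rw [not_lt] at hsmall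
            linarith
          have hcase : m = m1 ∨ m = m1 + 1 := by omega
          have hq_lt : (1 / 4 : ℝ) ^ m < 10 / 3 * r := by linarith
          have hdist : dist u (w m) < r / 2 := by
            have := hdiam m u hum (w m) (hw m)
            linarith
          rcases hcase with h | h
          · exact ⟨w m1, Or.inr (Or.inl rfl), by rw [mem_ball, ← h]; exact hdist⟩
          · exact ⟨w (m1 + 1), Or.inr (Or.inr rfl), by rw [mem_ball, ← h]; exact hdist⟩
  rcases hz with rfl | hz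
  · exact big (by simpa using (by positivity : 0 < 17 / 8 * r))
  · obtain ⟨n, hzn⟩ := Set.mem_iUnion.mp hz
    by_cases hrn : r ≤ (1 / 4 : ℝ) ^ n / 2
    · obtain ⟨S, hSP, hScard, hScov⟩ := hd n z hzn r hr
      refine ⟨S, ?_, le_trans hScard (le_max_left _ _), ?_⟩
      · intro y hy
        exact Set.mem_insert_of_mem _ (Set.mem_iUnion.mpr ⟨n, hSP hy⟩)
      · rintro u ⟨huZ, hur⟩
        apply hScov
        refine ⟨?_, hur⟩
        rw [mem_ball] at hur
        have hq : (0 : ℝ) < (1 / 4 : ℝ) ^ n := by positivity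
        rcases huZ with rfl | huZ
        · exfalso
          have := hlo n z hzn
          rw [dist_zero_left] at hur
          linarith
        · obtain ⟨m, hum⟩ := Set.mem_iUnion.mp huZ
          by_cases hmn : m = n
          · rw [← hmn]; exact hum
          · exfalso
            have := sep_pieces P hlo hhi hmn hzn hum
            linarith
    · rw [not_le] at hrn
      apply big
      have := hhi n z hzn
      linarith

theorem sim_doubling (φ : L2 → L2) (s : ℝ) (hs : 0 < s) (hφ : ∀ x y, dist (φ x) (φ y) = s * dist x y)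
    {Y : Set L2} {lam : ℕ} (hY : DoublingWith Y lam) : DoublingWith (φ '' Y) lam := by
  classical
  rintro _ ⟨x, hx, rfl⟩ r hr
  obtain ⟨S, hSY, hScard, hScov⟩ := hY x hx (r / s) (by positivity)
  refine ⟨S.image φ, ?_, le_trans Finset.card_image_le hScard, ?_⟩
  · intro y hy
    simp only [Finset.coe_image] at hy
    exact Set.image_mono hSY hy
  · rintro _ ⟨⟨u, hu, rfl⟩, hur⟩
    rw [mem_ball, hφ] at hur
    have h1 : u ∈ Y ∩ ball x (r / s) := ⟨hu, by rw [mem_ball, lt_div_iff₀ hs]; linarith⟩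
    have h2 := hScov h1
    simp only [Set.mem_iUnion, exists_prop] at h2 ⊢
    obtain ⟨y, hyS, huy⟩ := h2
    refine ⟨φ y, Finset.mem_image_of_mem _ hyS, ?_⟩
    rw [mem_ball] at huy ⊢
    rw [hφ]
    have : dist u y * s < r / s / 2 * s := mul_lt_mul_of_pos_right huy hs
    have h3 : r / s / 2 * s = r / 2 := by field_simp
    linarith

theorem sim_emb (φ : L2 → L2) (s : ℝ) (hs : 0 < s) (hφ : ∀ x y, dist (φ x) (φ y) = s * dist x y)
    {Y : Set L2} {k : ℕ} {D : ℝ} (h : Emb (φ '' Y) k D) : Emb Y k D := by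
  obtain ⟨f, a, ha, hf⟩ := h
  refine ⟨f ∘ φ, a * s, by positivity, ?_⟩
  intro x hx y hy
  have := hf (φ x) (Set.mem_image_of_mem _ hx) (φ y) (Set.mem_image_of_mem _ hy)
  rw [hφ] at this
  simp only [Function.comp]
  constructor
  · linarith [this.1]
  · linarith [this.2]

theorem Emb.mono_set {X Y : Set L2} {k : ℕ} {D : ℝ} (h : Emb X k D) (hYX : Y ⊆ X) : Emb Y k D := by
  obtain ⟨f, a, ha, hf⟩ := h
  exact ⟨f, a, ha, fun x hx y hy => hf x (hYX hx) y (hYX hy)⟩

theorem Emb.mono_D {X : Set L2} {k : ℕ} {D D' : ℝ} (h : Emb X k D) (hD : D ≤ D') : Emb X k D' := by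
  obtain ⟨f, a, ha, hf⟩ := h
  refine ⟨f, a, ha, fun x hx y hy => ⟨(hf x hx y hy).1, le_trans (hf x hx y hy).2 ?_⟩⟩
  have : 0 ≤ a * dist x y := by positivity
  nlinarith

noncomputable def e0 : L2 := lp.single 2 0 (1 : ℝ)

theorem norm_e0 : ‖e0‖ = 1 := by
  unfold e0
  rw [lp.norm_single (by norm_num)]
  simp


/-- The similarity placing a bounded set in the `n`-th annulus. -/
noncomputable def place (n : ℕ) (s : ℝ) (y0 : L2) (y : L2) : L2 :=
  ((1 / 4 : ℝ) ^ n) • e0 + s • (y - y0)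

theorem dist_place (n : ℕ) (s : ℝ) (hs : 0 < s) (y0 x y : L2) :
    dist (place n s y0 x) (place n s y0 y) = s * dist x y := by
  unfold place
  rw [dist_add_left, dist_smul₀, dist_sub_right, Real.norm_eq_abs, abs_of_pos hs]

theorem place_near (n : ℕ) (R : ℝ) (hR : 0 < R) (y0 y : L2) (hy : dist y y0 ≤ R) :
    ‖place n ((1 / 4 : ℝ) ^ n / (16 * R)) y0 y - ((1 / 4 : ℝ) ^ n) • e0‖ ≤ (1 / 4 : ℝ) ^ n / 16 := by
  unfold place
  have hq : (0 : ℝ) < (1 / 4 : ℝ) ^ n := by positivity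
  rw [add_sub_cancel_left, norm_smul, Real.norm_eq_abs, abs_of_pos (by positivity), ← dist_eq_norm]
  calc (1 / 4 : ℝ) ^ n / (16 * R) * dist y y0 ≤ (1 / 4 : ℝ) ^ n / (16 * R) * R :=
        mul_le_mul_of_nonneg_left hy (by positivity)
    _ = (1 / 4 : ℝ) ^ n / 16 := by field_simp

theorem norm_cen (n : ℕ) : ‖((1 / 4 : ℝ) ^ n) • e0‖ = (1 / 4 : ℝ) ^ n := by
  rw [norm_smul, norm_e0, mul_one, Real.norm_eq_abs, abs_of_pos (by positivity)]

/-- The glued set is compact when the pieces are finite. -/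
theorem compact_glue (P : ℕ → Set L2) (hfin : ∀ n, (P n).Finite)
    (hhi : ∀ n, ∀ u ∈ P n, ‖u‖ ≤ 17 / 16 * (1 / 4 : ℝ) ^ n) :
    IsCompact (insert (0 : L2) (⋃ n, P n)) := by
  let f : (Σ n, P n) → L2 := fun i => (i.2 : L2)
  have hrange : Set.range f = ⋃ n, P n := by
    ext u
    simp only [Set.mem_range, Set.mem_iUnion, f]
    constructor
    · rintro ⟨⟨n, v⟩, rfl⟩
      exact ⟨n, v.2⟩
    · rintro ⟨n, hu⟩
      exact ⟨⟨n, ⟨u, hu⟩⟩, rfl⟩
  have ht : Tendsto f cofinite (𝓝 0) := by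
    rw [Metric.tendsto_nhds]
    intro ε hε
    rw [Filter.eventually_cofinite]
    obtain ⟨N, hN⟩ : ∃ N : ℕ, (1 / 4 : ℝ) ^ N < 16 / 17 * ε :=
      exists_pow_lt_of_lt_one (by positivity) (by norm_num)
    have : ∀ n, Finite (P n) := fun n => (hfin n).to_subtype
    let g : (Σ n : Fin N, P n) → (Σ n, P n) := fun i => ⟨i.1, i.2⟩
    have hsub : {i : Σ n, P n | ¬ dist (f i) 0 < ε} ⊆ Set.range g := by
      rintro ⟨n, v⟩ hi
      have hnN : n < N := by
        by_contra hcon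
        rw [not_lt] at hcon
        apply hi
        rw [dist_zero_right]
        have h1 : (1 / 4 : ℝ) ^ n ≤ (1 / 4 : ℝ) ^ N :=
          pow_le_pow_of_le_one (by norm_num) (by norm_num) hcon
        have h2 := hhi n v v.2
        simp only [f]
        linarith
      exact ⟨⟨⟨n, hnN⟩, v⟩, rfl⟩
    exact Set.Finite.subset (Set.finite_range g) hsub
  have := ht.isCompact_insert_range_of_cofinite
  rwa [hrange] at this

theorem isolated_glue (P : ℕ → Set L2) (hfin : ∀ n, (P n).Finite)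
    (hlo : ∀ n, ∀ u ∈ P n, 15 / 16 * (1 / 4 : ℝ) ^ n ≤ ‖u‖)
    (hhi : ∀ n, ∀ u ∈ P n, ‖u‖ ≤ 17 / 16 * (1 / 4 : ℝ) ^ n) :
    ∀ x ∈ insert (0 : L2) (⋃ n, P n), x ≠ 0 →
      ∃ ε > 0, insert (0 : L2) (⋃ n, P n) ∩ ball x ε = {x} := by
  intro x hx hx0
  rcases hx with rfl | hx
  · exact absurd rfl hx0
  obtain ⟨n, hxn⟩ := Set.mem_iUnion.mp hx
  have hcl : IsClosed (P n \ {x}) := ((hfin n).subset Set.sdiff_subset).isClosed
  obtain ⟨δ, hδ, hball⟩ := Metric.isOpen_iff.mp hcl.isOpen_compl x (by simp)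
  have hq : (0 : ℝ) < (1 / 4 : ℝ) ^ n := by positivity
  refine ⟨min δ ((1 / 4 : ℝ) ^ n / 2), lt_min hδ (by positivity), ?_⟩
  apply Set.eq_singleton_iff_unique_mem.mpr
  refine ⟨⟨Set.mem_insert_of_mem _ hx, mem_ball_self (lt_min hδ (by positivity))⟩, ?_⟩
  rintro u ⟨huZ, hur⟩
  rw [mem_ball, lt_min_iff] at hur
  rcases huZ with rfl | huZ
  · exfalso
    have := hlo n x hxn
    rw [dist_zero_left] at hur
    linarith [hur.2]
  · obtain ⟨m, hum⟩ := Set.mem_iUnion.mp huZ
    by_cases hmn : m = n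
    · subst hmn
      by_contra hne
      exact hball (mem_ball.mpr hur.1) ⟨hum, hne⟩
    · exfalso
      have := sep_pieces P hlo hhi hmn hxn hum
      linarith [hur.2]

/-- **Equivalence of four forms of the Lang-Plaut problem.** -/
theorem result :
    List.TFAE [
      ∀ X : Set L2, (∃ lam : ℕ, DoublingWith X lam) → ∃ (k : ℕ) (D : ℝ), EmbedsWith X k D,
      ∀ lam : ℕ, ∃ (k : ℕ) (D : ℝ), ∀ X : Set L2, DoublingWith X lam → EmbedsWith X k D,
      ∀ lam : ℕ, ∃ (k : ℕ) (D : ℝ), ∀ X : Set L2, X.Finite → DoublingWith X lam →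
        EmbedsWith X k D,
      ∀ X : Set L2, X.Countable → IsCompact X →
        (∀ x ∈ X, x ≠ 0 → ∃ ε > 0, X ∩ ball x ε = {x}) →
        (∃ lam : ℕ, DoublingWith X lam) → ∃ (k : ℕ) (D : ℝ), EmbedsWith X k D] := by
  tfae_have 2 → 1 := by
    rintro h X ⟨lam, hX⟩
    obtain ⟨k, D, hkD⟩ := h lam
    exact ⟨k, D, hkD X hX⟩
  tfae_have 1 → 4 := by
    intro h X _ _ _ hX
    exact h X hX
  tfae_have 3 → 2 := by
    intro h lam
    obtain ⟨k, D, hkD⟩ := h (lam * lam)
    refine ⟨k, D, fun X hX => ?_⟩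
    rw [embedsWith_iff]
    apply emb_of_finite
    intro F hF
    rw [← embedsWith_iff]
    exact hkD _ F.finite_toSet (hX.subset hF)
  tfae_have 4 → 3 := by
    intro h lam
    by_contra hcon
    have hbad : ∀ (k : ℕ) (D : ℝ), ∃ X : Set L2, X.Finite ∧ DoublingWith X lam ∧ ¬ Emb X k D := by
      intro k D
      by_contra hc
      apply hcon
      refine ⟨k, D, fun X hXf hXd => ?_⟩
      by_contra hne
      exact hc ⟨X, hXf, hXd, fun he => hne ((embedsWith_iff X k D).mpr he)⟩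
    choose X hXfin hXd hXbad using hbad
    let Y : ℕ → Set L2 := fun n => X (Nat.unpair n).1 ((Nat.unpair n).2 : ℝ)
    have hYne : ∀ n, (Y n).Nonempty := by
      intro n
      by_contra hne
      rw [Set.not_nonempty_iff_eq_empty] at hne
      apply hXbad (Nat.unpair n).1 ((Nat.unpair n).2 : ℝ)
      change Emb (Y n) _ _
      rw [hne]
      exact ⟨fun _ => 0, 1, one_pos, by simp⟩
    choose y0 hy0 using hYne
    have hbd : ∀ n, ∃ R : ℝ, 0 < R ∧ ∀ y ∈ Y n, dist y (y0 n) ≤ R := by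
      intro n
      obtain ⟨R, hR⟩ := (hXfin (Nat.unpair n).1 ((Nat.unpair n).2 : ℝ)).isBounded.subset_closedBall (y0 n)
      refine ⟨max R 1, lt_of_lt_of_le one_pos (le_max_right _ _), fun y hy => ?_⟩
      exact le_trans (mem_closedBall.mp (hR hy)) (le_max_left _ _)
    choose R hRpos hR using hbd
    let s : ℕ → ℝ := fun n => (1 / 4 : ℝ) ^ n / (16 * R n)
    have hs : ∀ n, 0 < s n := fun n => by
      have := hRpos n
      simp only [s]
      positivity
    let P : ℕ → Set L2 := fun n => place n (s n) (y0 n) '' Y n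
    have hnear : ∀ n, ∀ u ∈ P n, ‖u - ((1 / 4 : ℝ) ^ n) • e0‖ ≤ (1 / 4 : ℝ) ^ n / 16 := by
      rintro n _ ⟨y, hy, rfl⟩
      exact place_near n (R n) (hRpos n) (y0 n) y (hR n y hy)
    have hlo : ∀ n, ∀ u ∈ P n, 15 / 16 * (1 / 4 : ℝ) ^ n ≤ ‖u‖ := by
      intro n u hu
      have h1 := hnear n u hu
      have h2 : ‖((1 / 4 : ℝ) ^ n) • e0‖ ≤ ‖u‖ + ‖u - ((1 / 4 : ℝ) ^ n) • e0‖ := by
        calc ‖((1 / 4 : ℝ) ^ n) • e0‖ = ‖u - (u - ((1 / 4 : ℝ) ^ n) • e0)‖ := by congr 1; abel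
          _ ≤ ‖u‖ + ‖u - ((1 / 4 : ℝ) ^ n) • e0‖ := norm_sub_le _ _
      rw [norm_cen] at h2
      linarith
    have hhi : ∀ n, ∀ u ∈ P n, ‖u‖ ≤ 17 / 16 * (1 / 4 : ℝ) ^ n := by
      intro n u hu
      have h1 := hnear n u hu
      have h2 : ‖u‖ ≤ ‖((1 / 4 : ℝ) ^ n) • e0‖ + ‖u - ((1 / 4 : ℝ) ^ n) • e0‖ := by
        calc ‖u‖ = ‖((1 / 4 : ℝ) ^ n) • e0 + (u - ((1 / 4 : ℝ) ^ n) • e0)‖ := by congr 1; abel
          _ ≤ _ := norm_add_le _ _
      rw [norm_cen] at h2
      linarith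
    have hdiam : ∀ n, ∀ u ∈ P n, ∀ v ∈ P n, dist u v ≤ (1 / 4 : ℝ) ^ n / 8 := by
      intro n u hu v hv
      have h1 := hnear n u hu
      have h2 := hnear n v hv
      have h3 : dist u v ≤ dist u (((1 / 4 : ℝ) ^ n) • e0) + dist v (((1 / 4 : ℝ) ^ n) • e0) :=
        dist_triangle_right _ _ _
      rw [dist_eq_norm, dist_eq_norm u, dist_eq_norm v] at h3
      rw [dist_eq_norm]
      linarith
    have hPfin : ∀ n, (P n).Finite := fun n =>
      (hXfin (Nat.unpair n).1 ((Nat.unpair n).2 : ℝ)).image _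
    have hPd : ∀ n, DoublingWith (P n) lam := fun n =>
      sim_doubling _ (s n) (hs n) (dist_place n (s n) (hs n) (y0 n))
        (hXd (Nat.unpair n).1 ((Nat.unpair n).2 : ℝ))
    have hw : ∀ n, place n (s n) (y0 n) (y0 n) ∈ P n := fun n => Set.mem_image_of_mem _ (hy0 n)
    obtain ⟨k, D, hkD⟩ := h (insert (0 : L2) (⋃ n, P n))
      ((Set.countable_iUnion fun n => (hPfin n).countable).insert 0)
      (compact_glue P hPfin hhi) (isolated_glue P hPfin hlo hhi)
      ⟨max lam 3, doubling_glue P _ lam hw hlo hhi hdiam hPd⟩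
    rw [embedsWith_iff] at hkD
    let n := Nat.pair k ⌈D⌉₊
    have h1 : Emb (P n) k D :=
      hkD.mono_set (fun u hu => Set.mem_insert_of_mem _ (Set.mem_iUnion.mpr ⟨n, hu⟩))
    have h2 : Emb (Y n) k D := sim_emb _ (s n) (hs n) (dist_place n (s n) (hs n) (y0 n)) h1
    have h3 : Emb (Y n) k (⌈D⌉₊ : ℝ) := h2.mono_D (Nat.le_ceil D)
    have h4 := hXbad (Nat.unpair n).1 ((Nat.unpair n).2 : ℝ)
    apply h4
    have hn : Nat.unpair n = (k, ⌈D⌉₊) := Nat.unpair_pair _ _
    simp only [Y] at h3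
    rw [hn] at h3 ⊢
    exact h3
  tfae_finish

end Vale.Agent.Results.P208.EquivForms
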